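import Vale.Agent.P183.All7

namespace Vale.Agent.Results.P183.AllSeven

open Vale.Agent.P183

theorem result (L : Type) [Lattice L] [Finite L] [Nonempty L] (h : Nat.card L ≤ 7) :
    Representable L := rep_le_seven L h

end Vale.Agent.Results.P183.AllSeven
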