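import Vale.Agent.P183.L7

namespace Vale.Agent.Results.P183.Lseven

open Vale.Agent.P183

theorem result : Representable L7 ∧ IsInterval L7 := ⟨rep_L7, interval_L7⟩

end Vale.Agent.Results.P183.Lseven
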